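import Vale.Agent.P184.H553.Char
import Vale.Agent.P184.H13.Rows

/-!
# P184, row F: elements of `ℓ¹` of an abelian group with integral Fourier transform
-/

namespace Vale.Agent.P184.H553

open Filter Topology

variable {M : Type*} {J : Type*} [CommGroup M]

/-- the Fourier transform -/
noncomputable def T (w : J → ℂ) (μ : J → M) (χ : M →* Circle) : ℂ :=
  ∑' j, w j * (χ (μ j) : ℂ)

open Classical in
/-- the coefficient at `m` -/
noncomputable def co (w : J → ℂ) (μ : J → M) (m : M) : ℂ :=
  ∑' j, if μ j = m then w j else 0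

omit [CommGroup M] in
theorem co_eq (w : J → ℂ) (μ : J → M) (m : M) :
    ∑' j : {j // μ j = m}, w j = co w μ m := by
  classical
  have := tsum_subtype (f := w) {j | μ j = m}
  refine this.trans (tsum_congr fun j => ?_)
  rw [Set.indicator_apply]
  rfl

theorem norm_term (w : J → ℂ) (μ : J → M) (χ : M →* Circle) (j : J) :
    ‖w j * (χ (μ j) : ℂ)‖ = ‖w j‖ := by
  rw [norm_mul, Circle.norm_coe, mul_one]

theorem summable_term {w : J → ℂ} (μ : J → M) (hw : Summable fun j => ‖w j‖) (χ : M →* Circle) :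
    Summable fun j => w j * (χ (μ j) : ℂ) :=
  Summable.of_norm (by simpa only [norm_term] using hw)

/-- averages of powers of a complex number of modulus one -/
theorem tendsto_avg (z : Circle) [Decidable (z = 1)] :
    Tendsto (fun N : ℕ => (∑ k ∈ Finset.range (N + 1), (z : ℂ) ^ k) / ((N : ℂ) + 1)) atTop
      (𝓝 (if z = 1 then 1 else 0)) := by
  split_ifs with h
  · refine tendsto_const_nhds.congr fun N => ?_
    have h1 : ((N : ℂ) + 1) ≠ 0 := by exact_mod_cast Nat.succ_ne_zero N
    rw [h]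
    simp [h1]
  · have hz : (z : ℂ) ≠ 1 := fun h1 => h (Circle.ext h1)
    have hz' : ‖(z : ℂ) - 1‖ ≠ 0 := by rwa [norm_ne_zero_iff, sub_ne_zero]
    refine squeeze_zero_norm' (a := fun N : ℕ => (2 / ‖(z : ℂ) - 1‖) * (1 / ((N : ℝ) + 1)))
      (Eventually.of_forall fun N => ?_) ?_
    · rw [geom_sum_eq hz, norm_div, norm_div]
      have h1 : ‖((N : ℂ) + 1)‖ = (N : ℝ) + 1 := by
        have : ((N : ℂ) + 1) = ((N + 1 : ℕ) : ℂ) := by push_cast; ring
        rw [this, Complex.norm_natCast]
        push_cast; ring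
      rw [h1]
      have h2 : ‖(z : ℂ) ^ (N + 1) - 1‖ ≤ 2 := by
        refine (norm_sub_le _ _).trans ?_
        rw [norm_pow, Circle.norm_coe, one_pow, norm_one]
        norm_num
      have h3 : (0 : ℝ) < (N : ℝ) + 1 := by positivity
      rw [div_div, div_mul_div_comm, mul_one]
      gcongr
    · rw [show (0 : ℝ) = (2 / ‖(z : ℂ) - 1‖) * 0 by ring]
      exact tendsto_const_nhds.mul tendsto_one_div_add_atTop_nhds_zero_nat

theorem norm_avg_le (z : Circle) (N : ℕ) :
    ‖(∑ k ∈ Finset.range (N + 1), (z : ℂ) ^ k) / ((N : ℂ) + 1)‖ ≤ 1 := by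
  have h1 : ‖((N : ℂ) + 1)‖ = (N : ℝ) + 1 := by
    have : ((N : ℂ) + 1) = ((N + 1 : ℕ) : ℂ) := by push_cast; ring
    rw [this, Complex.norm_natCast]
    push_cast; ring
  rw [norm_div, h1, div_le_one (by positivity)]
  refine (norm_sum_le _ _).trans (le_of_eq ?_)
  simp only [norm_pow, Circle.norm_coe, one_pow]
  simp

theorem twist (w : J → ℂ) (μ : J → M) (χ ψ : M →* Circle) :
    T w μ (ψ * χ) = ∑' j, (w j * (ψ (μ j) : ℂ)) * (χ (μ j) : ℂ) := by
  refine tsum_congr fun j => ?_
  rw [MonoidHom.mul_apply, Circle.coe_mul, mul_assoc]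

/-- vanishing transforms can be restricted to the kernel of a character -/
theorem restrict {w : J → ℂ} {μ : J → M} (hw : Summable fun j => ‖w j‖)
    (h : ∀ χ, T w μ χ = 0) (ψ : M →* Circle) [∀ j, Decidable (ψ (μ j) = 1)] (χ : M →* Circle) :
    T (fun j => if ψ (μ j) = 1 then w j else 0) μ χ = 0 := by
  have h1 : ∀ N : ℕ, ∑' j, w j * (χ (μ j) : ℂ) *
      ((∑ k ∈ Finset.range (N + 1), (ψ (μ j) : ℂ) ^ k) / ((N : ℂ) + 1)) = 0 := by
    intro N
    have h2 : ∀ j, w j * (χ (μ j) : ℂ) *
        ((∑ k ∈ Finset.range (N + 1), (ψ (μ j) : ℂ) ^ k) / ((N : ℂ) + 1)) =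
        (∑ k ∈ Finset.range (N + 1), w j * ((ψ ^ k * χ) (μ j) : ℂ)) / ((N : ℂ) + 1) := by
      intro j
      rw [mul_div_assoc', Finset.mul_sum]
      congr 1
      refine Finset.sum_congr rfl fun k _ => ?_
      rw [MonoidHom.mul_apply, MonoidHom.pow_apply, Circle.coe_mul, Circle.coe_pow]
      ring
    have h5 : ∑' j, ∑ k ∈ Finset.range (N + 1), w j * ((ψ ^ k * χ) (μ j) : ℂ) = 0 := by
      refine (Summable.tsum_finsetSum (fun k _ => summable_term μ hw (ψ ^ k * χ))).trans ?_
      exact Finset.sum_eq_zero fun k _ => h (ψ ^ k * χ)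
    rw [tsum_congr h2, tsum_div_const, h5, zero_div]
  have h3 : Tendsto (fun N : ℕ => ∑' j, w j * (χ (μ j) : ℂ) *
      ((∑ k ∈ Finset.range (N + 1), (ψ (μ j) : ℂ) ^ k) / ((N : ℂ) + 1))) atTop
      (𝓝 (∑' j, w j * (χ (μ j) : ℂ) * (if ψ (μ j) = 1 then 1 else 0))) := by
    refine tendsto_tsum_of_dominated_convergence hw (fun j => ?_)
      (Eventually.of_forall fun N j => ?_)
    · exact tendsto_const_nhds.mul (tendsto_avg _)
    · rw [norm_mul, norm_term]
      exact mul_le_of_le_one_right (norm_nonneg _) (norm_avg_le _ _)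
  simp_rw [h1] at h3
  have h4 := tendsto_nhds_unique h3 tendsto_const_nhds
  refine Eq.trans (tsum_congr fun j => ?_) h4
  by_cases hj : ψ (μ j) = 1
  · simp only [hj, if_true]
    ring
  · simp only [hj, if_false]
    ring

theorem norm_ite_le (w : J → ℂ) (p : J → Prop) [DecidablePred p] (j : J) :
    ‖(if p j then w j else 0 : ℂ)‖ ≤ ‖w j‖ := by
  split_ifs
  · exact le_rfl
  · rw [norm_zero]; exact norm_nonneg _

theorem summable_ite {w : J → ℂ} (hw : Summable fun j => ‖w j‖) (p : J → Prop)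
    [DecidablePred p] : Summable fun j => ‖(if p j then w j else 0 : ℂ)‖ :=
  Summable.of_nonneg_of_le (fun _ => norm_nonneg _) (norm_ite_le w p) hw

open Classical in
theorem restrict_finset {w : J → ℂ} {μ : J → M} (hw : Summable fun j => ‖w j‖)
    (h : ∀ χ, T w μ χ = 0) (X : Finset (M →* Circle)) :
    ∀ χ, T (fun j => if ∀ ψ ∈ X, ψ (μ j) = 1 then w j else 0) μ χ = 0 := by
  induction X using Finset.induction_on with
  | empty => simpa using h
  | insert ψ X hψ ih =>
    intro χ
    have h1 := restrict (summable_ite hw _) ih ψ χ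
    refine Eq.trans (tsum_congr fun j => ?_) h1
    have h2 : (if ∀ ψ' ∈ insert ψ X, ψ' (μ j) = 1 then w j else 0) =
        (if ψ (μ j) = 1 then if ∀ ψ' ∈ X, ψ' (μ j) = 1 then w j else 0 else 0) := by
      rw [← ite_and]
      refine if_congr ?_ rfl rfl
      rw [Finset.forall_mem_insert]
    exact congrArg (· * ((χ (μ j) : Circle) : ℂ)) h2

open Classical in
theorem tail {f : J → ℝ} (hf : Summable f) {ε : ℝ} (hε : 0 < ε) :
    ∃ S : Finset J, ∑' j, (if j ∈ S then 0 else f j) < ε := by
  have h1 := hf.hasSum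
  obtain ⟨S, hS⟩ := ((tendsto_order.1 h1).1 (∑' j, f j - ε) (by linarith)).exists
  refine ⟨S, ?_⟩
  have h2 : ∑' j, f j = ∑' j, (if j ∈ S then f j else 0) + ∑' j, (if j ∈ S then 0 else f j) := by
    have hs1 : Summable fun j => if j ∈ S then f j else 0 := by
      refine summable_of_ne_finset_zero (s := S) fun j hj => ?_
      rw [if_neg hj]
    have hs2 : Summable fun j => if j ∈ S then 0 else f j := by
      refine (hf.sub hs1).congr fun j => ?_
      split_ifs <;> simp
    rw [← hs1.tsum_add hs2]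
    refine tsum_congr fun j => ?_
    split_ifs <;> simp
  have h3 : ∑' j, (if j ∈ S then f j else 0) = ∑ j ∈ S, f j := by
    rw [tsum_eq_sum (s := S) fun j hj => if_neg hj]
    exact Finset.sum_congr rfl fun j hj => if_pos hj
  rw [h3] at h2
  linarith

theorem summable_tail {f : J → ℝ} (hf : Summable f) (h0 : ∀ j, 0 ≤ f j) (S : Finset J)
    [DecidablePred (· ∈ S)] : Summable fun j => if j ∈ S then 0 else f j := by
  refine Summable.of_nonneg_of_le (fun j => ?_) (fun j => ?_) hf
  · split_ifs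
    · exact le_rfl
    · exact h0 j
  · split_ifs
    · exact h0 j
    · exact le_rfl

/-- the coefficient at `1` of a vanishing transform -/
theorem co_one {w : J → ℂ} {μ : J → M} (hw : Summable fun j => ‖w j‖)
    (h : ∀ χ, T w μ χ = 0) : co w μ 1 = 0 := by
  classical
  rw [← norm_eq_zero]
  refine le_antisymm (le_of_forall_pos_le_add fun ε hε => ?_) (norm_nonneg _)
  rw [zero_add]
  obtain ⟨S, hS⟩ := tail hw hε
  have hX : ∀ j : J, ∃ χ : M →* Circle, μ j ≠ 1 → χ (μ j) ≠ 1 := by
    intro j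
    by_cases hj : μ j = 1
    · exact ⟨1, fun h => absurd hj h⟩
    · obtain ⟨χ, hχ⟩ := exists_char hj
      exact ⟨χ, fun _ => hχ⟩
  choose X hX using hX
  have h1 := restrict_finset hw h (S.image X) 1
  have h2 : co w μ 1 = ∑' j, ((if μ j = 1 then w j else 0) -
      (if ∀ ψ ∈ S.image X, ψ (μ j) = 1 then w j else 0) * (((1 : M →* Circle) (μ j) : Circle) : ℂ)) := by
    rw [(Summable.of_norm (summable_ite hw fun j => μ j = 1)).tsum_sub
      (summable_term μ (summable_ite hw fun j => ∀ ψ ∈ S.image X, ψ (μ j) = 1) 1)]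
    change _ = _ - T (fun j => if ∀ ψ ∈ S.image X, ψ (μ j) = 1 then w j else 0) μ 1
    rw [h1, sub_zero]
    rfl
  rw [h2]
  have h3 : ∀ j, ‖((if μ j = 1 then w j else 0) -
      (if ∀ ψ ∈ S.image X, ψ (μ j) = 1 then w j else 0) *
        (((1 : M →* Circle) (μ j) : Circle) : ℂ))‖ ≤
      if j ∈ S then 0 else ‖w j‖ := by
    intro j
    rw [MonoidHom.one_apply, Circle.coe_one, mul_one]
    by_cases hj : μ j = 1
    · rw [if_pos hj, if_pos (fun ψ _ => by rw [hj, map_one]), sub_self, norm_zero]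
      split_ifs
      · exact le_rfl
      · exact norm_nonneg _
    · rw [if_neg hj, zero_sub, norm_neg]
      by_cases hjS : j ∈ S
      · rw [if_neg, norm_zero, if_pos hjS]
        intro hall
        exact hX j hj (hall (X j) (Finset.mem_image_of_mem X hjS))
      · rw [if_neg hjS]
        exact norm_ite_le w (fun j => ∀ ψ ∈ S.image X, ψ (μ j) = 1) j
  refine (tsum_of_norm_bounded (summable_tail hw (fun _ => norm_nonneg _) S).hasSum h3).trans hS.le

theorem co_translate (w : J → ℂ) (μ : J → M) (m : M) :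
    co w (fun j => μ j * m⁻¹) 1 = co w μ m := by
  classical
  refine tsum_congr fun j => ?_
  exact if_congr mul_inv_eq_one rfl rfl

theorem uniq {w : J → ℂ} {μ : J → M} (hw : Summable fun j => ‖w j‖)
    (h : ∀ χ, T w μ χ = 0) (m : M) : co w μ m = 0 := by
  rw [← co_translate]
  refine co_one hw fun χ => ?_
  have h1 : T w (fun j => μ j * m⁻¹) χ = T w μ χ * (χ m⁻¹ : ℂ) := by
    rw [T, T, ← tsum_mul_right]
    refine tsum_congr fun j => ?_
    rw [map_mul, Circle.coe_mul]
    ring
  rw [h1, h χ, zero_mul]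

theorem rowUniq.{u, v} : H13.RowUniq.{u, v} := by
  intro M J _ w μ hw h m
  rw [co_eq]
  exact uniq hw h m

/-- twisting by a character which does not change the transform -/
theorem co_twist {w : J → ℂ} {μ : J → M} (hw : Summable fun j => ‖w j‖) (ψ : M →* Circle)
    (h : ∀ χ, T w μ (ψ * χ) = T w μ χ) {m : M} (hm : ψ m ≠ 1) : co w μ m = 0 := by
  classical
  have hw1 : Summable fun j => ‖w j * ((ψ (μ j) : ℂ) - 1)‖ := by
    refine Summable.of_nonneg_of_le (fun _ => norm_nonneg _) (fun j => ?_) (hw.mul_right 2)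
    rw [norm_mul]
    refine mul_le_mul_of_nonneg_left ?_ (norm_nonneg _)
    refine (norm_sub_le _ _).trans ?_
    rw [Circle.norm_coe, norm_one]
    norm_num
  have h1 : ∀ χ, T (fun j => w j * ((ψ (μ j) : ℂ) - 1)) μ χ = 0 := by
    intro χ
    have h2 : T (fun j => w j * ((ψ (μ j) : ℂ) - 1)) μ χ = T w μ (ψ * χ) - T w μ χ := by
      rw [T, T, T, ← (summable_term μ hw _).tsum_sub (summable_term μ hw _)]
      refine tsum_congr fun j => ?_
      rw [MonoidHom.mul_apply, Circle.coe_mul]
      ring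
    rw [h2, h, sub_self]
  have h3 := uniq hw1 h1 m
  have h4 : co (fun j => w j * ((ψ (μ j) : ℂ) - 1)) μ m = co w μ m * ((ψ m : ℂ) - 1) := by
    rw [co, co, ← tsum_mul_right]
    refine tsum_congr fun j => ?_
    split_ifs with hj
    · rw [hj]
    · rw [zero_mul]
  rw [h4] at h3
  rcases mul_eq_zero.1 h3 with h5 | h5
  · exact h5
  · exact absurd (Circle.ext (sub_eq_zero.1 h5)) hm

theorem int_eq_of_norm_lt {a b : ℂ} (ha : ∃ n : ℤ, a = n) (hb : ∃ n : ℤ, b = n)
    (h : ‖a - b‖ < 1) : a = b := by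
  obtain ⟨n, rfl⟩ := ha
  obtain ⟨k, rfl⟩ := hb
  have h1 : ((n : ℂ) - k) = ((n - k : ℤ) : ℂ) := by push_cast; ring
  rw [h1, Complex.norm_intCast] at h
  have h2 : |n - k| < 1 := by exact_mod_cast h
  have h3 : n - k = 0 := Int.abs_lt_one_iff.1 h2
  rw [sub_eq_zero.1 h3]

/-- an element of `ℓ¹` with integral transform is supported on a finitely generated subgroup -/
theorem co_closure {w : J → ℂ} {μ : J → M} (hw : Summable fun j => ‖w j‖)
    (h : ∀ χ : M →* Circle, ∃ n : ℤ, T w μ χ = n) :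
    ∃ B : Finset M, ∀ m ∉ Subgroup.closure (B : Set M), co w μ m = 0 := by
  classical
  obtain ⟨S, hS⟩ := tail hw (show (0 : ℝ) < 1 / 4 by norm_num)
  refine ⟨S.image μ, fun m hm => ?_⟩
  obtain ⟨ψ, hψ, hm1⟩ := exists_char_sub hm
  refine co_twist hw ψ (fun χ => int_eq_of_norm_lt (h _) (h _) ?_) hm1
  have h1 : T w μ (ψ * χ) - T w μ χ = ∑' j, w j * (χ (μ j) : ℂ) * ((ψ (μ j) : ℂ) - 1) := by
    rw [T, T, ← (summable_term μ hw _).tsum_sub (summable_term μ hw _)]
    refine tsum_congr fun j => ?_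
    rw [MonoidHom.mul_apply, Circle.coe_mul]
    ring
  rw [h1]
  have h2 : ∀ j, ‖w j * (χ (μ j) : ℂ) * ((ψ (μ j) : ℂ) - 1)‖ ≤
      (if j ∈ S then 0 else ‖w j‖) * 2 := by
    intro j
    rw [norm_mul, norm_term]
    split_ifs with hj
    · have : ψ (μ j) = 1 := hψ _ (Subgroup.subset_closure
        (Finset.mem_coe.2 (Finset.mem_image_of_mem μ hj)))
      rw [this, Circle.coe_one, sub_self, norm_zero, mul_zero, zero_mul]
    · refine mul_le_mul_of_nonneg_left ?_ (norm_nonneg _)
      refine (norm_sub_le _ _).trans ?_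
      rw [Circle.norm_coe, norm_one]
      norm_num
  have h3 := tsum_of_norm_bounded
    ((summable_tail hw (fun _ => norm_nonneg _) S).mul_right 2).hasSum h2
  rw [tsum_mul_right] at h3
  linarith

theorem continuous_ray {w : J → ℂ} {μ : J → M} (hw : Summable fun j => ‖w j‖)
    (φ : Additive M →+ ℝ) (χ : M →* Circle) :
    Continuous fun θ : ℝ => T w μ (ray φ θ * χ) := by
  refine continuous_tsum (fun j => ?_) hw fun j θ => (norm_term w μ _ j).le
  have : Continuous fun θ : ℝ => ((ray φ θ (μ j) : Circle) : ℂ) := by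
    simp only [ray_apply]
    fun_prop
  simp only [MonoidHom.mul_apply, Circle.coe_mul]
  fun_prop

theorem co_inf {w : J → ℂ} {μ : J → M} (hw : Summable fun j => ‖w j‖)
    (h : ∀ χ : M →* Circle, ∃ n : ℤ, T w μ χ = n) {m : M} (hm : ¬ IsOfFinOrder m) :
    co w μ m = 0 := by
  obtain ⟨φ, hφ⟩ := exists_real hm
  refine co_twist hw (ray φ Real.pi) (fun χ => ?_) ?_
  · have h1 : ray φ 0 * χ = χ := by
      ext x
      rw [MonoidHom.mul_apply, ray_apply, zero_mul, Circle.exp_zero, one_mul]
    have hc := continuous_ray (μ := μ) hw φ χ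
    choose n hn using fun θ : ℝ => h (ray φ θ * χ)
    have hcn : Continuous n := by
      have h2 : Continuous fun θ : ℝ => ((n θ : ℤ) : ℂ) := by
        refine hc.congr fun θ => hn θ
      have h3 : Continuous fun θ : ℝ => ((n θ : ℤ) : ℝ) := by
        refine (Complex.continuous_re.comp h2).congr fun θ => ?_
        simp
      exact (Int.isClosedEmbedding_coe_real.isInducing.continuous_iff).2 h3
    have h4 : n Real.pi = n 0 := PreconnectedSpace.constant inferInstance hcn
    rw [hn Real.pi, h4, ← hn 0, h1]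
  · rw [ray_apply, hφ, mul_one]
    intro h1
    have h2 := congrArg (fun z : Circle => (z : ℂ)) h1
    simp only [Circle.coe_exp, Circle.coe_one, Complex.exp_pi_mul_I] at h2
    norm_num at h2

/-- the torsion elements of a finitely generated subgroup of an abelian group are finitely many -/
theorem finite_torsion (B : Finset M) :
    {m : M | m ∈ Subgroup.closure (B : Set M) ∧ IsOfFinOrder m}.Finite := by
  classical
  let S : Submodule ℤ (Additive M) := Submodule.span ℤ (Additive.ofMul '' (B : Set M))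
  have hS : S.FG := Submodule.fg_span (B.finite_toSet.image _)
  have : IsNoetherian ℤ S := isNoetherian_of_fg_of_noetherian S hS
  have : Module.Finite ℤ (Submodule.torsion ℤ S) :=
    Module.Finite.of_fg (IsNoetherian.noetherian (Submodule.torsion ℤ S))
  have : Finite (Submodule.torsion ℤ S) :=
    Module.finite_of_fg_torsion _ (Submodule.torsion_isTorsion)
  refine (Set.finite_range fun t : Submodule.torsion ℤ S =>
    Additive.toMul ((t : S) : Additive M)).subset ?_
  rintro m ⟨hm, hf⟩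
  have key : ∀ x ∈ Subgroup.closure (B : Set M), Additive.ofMul x ∈ S := by
    intro x hx
    induction hx using Subgroup.closure_induction with
    | mem x hx => exact Submodule.subset_span (Set.mem_image_of_mem _ hx)
    | one => exact S.zero_mem
    | mul x y _ _ hx hy => exact S.add_mem hx hy
    | inv x _ hx => exact S.neg_mem hx
  have hmS : Additive.ofMul m ∈ S := key m hm
  obtain ⟨n, hn, hn1⟩ := hf.exists_pow_eq_one
  refine ⟨⟨⟨Additive.ofMul m, hmS⟩, ?_⟩, rfl⟩
  rw [Submodule.mem_torsion_iff]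
  refine ⟨⟨(n : ℤ), mem_nonZeroDivisors_of_ne_zero (by exact_mod_cast hn.ne')⟩, ?_⟩
  apply Subtype.ext
  change ((n : ℤ) • Additive.ofMul m : Additive M) = 0
  rw [natCast_zsmul, ← ofMul_pow, hn1, ofMul_one]

theorem rowFour.{u, v} : H13.RowFour.{u, v} := by
  intro M J _ w μ hw h
  simp only [co_eq]
  refine ⟨fun m hm => co_inf hw h hm, ?_⟩
  obtain ⟨B, hB⟩ := co_closure hw h
  refine (finite_torsion B).subset fun m hm => ⟨?_, ?_⟩
  · by_contra h1
    exact hm (hB m h1)
  · by_contra h1
    exact hm (co_inf hw h h1)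

end Vale.Agent.P184.H553
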