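import Mathlib

/-!
# P184, row F: characters of an abelian group with values in the circle
-/

namespace Vale.Agent.P184.H553

/-- the homomorphism `ℚ / ℤ → ℝ / ℤ` -/
noncomputable def qr : AddCircle (1 : ℚ) →+ AddCircle (1 : ℝ) :=
  QuotientAddGroup.map (AddSubgroup.zmultiples (1 : ℚ)) (AddSubgroup.zmultiples (1 : ℝ))
    ((Rat.castHom ℝ : ℚ →+* ℝ) : ℚ →+ ℝ) (by
      rw [AddSubgroup.zmultiples_le]
      exact AddSubgroup.mem_comap.2 (by simp))

theorem qr_eq_zero {x : AddCircle (1 : ℚ)} (h : qr x = 0) : x = 0 := by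
  induction x using QuotientAddGroup.induction_on with
  | H q =>
    have h1 : ((q : ℝ) : AddCircle (1 : ℝ)) = 0 := h
    rw [AddCircle.coe_eq_zero_iff] at h1
    obtain ⟨n, hn⟩ := h1
    have h2 : ((q : ℚ) : AddCircle (1 : ℚ)) = 0 := by
      rw [AddCircle.coe_eq_zero_iff]
      refine ⟨n, ?_⟩
      have h3 : ((n • (1 : ℚ) : ℚ) : ℝ) = (q : ℝ) := by
        rw [← hn]; simp
      exact_mod_cast h3
    exact h2

variable {M : Type*} [CommGroup M]

/-- characters separate the points of an abelian group -/
theorem exists_char {m : M} (hm : m ≠ 1) : ∃ χ : M →* Circle, χ m ≠ 1 := by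
  have h0 : Additive.ofMul m ≠ 0 := fun h => hm (Additive.ofMul.injective h)
  obtain ⟨c, hc⟩ := CharacterModule.exists_character_apply_ne_zero_of_ne_zero h0
  refine ⟨{ toFun := fun x => AddCircle.toCircle (qr (c (Additive.ofMul x)))
            map_one' := ?_
            map_mul' := fun x y => ?_ }, ?_⟩
  · rw [ofMul_one, map_zero, map_zero, AddCircle.toCircle_zero]
  · rw [ofMul_mul, map_add, map_add, AddCircle.toCircle_add]
  · intro h
    change AddCircle.toCircle (qr (c (Additive.ofMul m))) = 1 at h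
    rw [← AddCircle.toCircle_zero (T := (1 : ℝ))] at h
    exact hc (qr_eq_zero (AddCircle.injective_toCircle one_ne_zero h))

/-- characters separate points from subgroups -/
theorem exists_char_sub {N : Subgroup M} {m : M} (hm : m ∉ N) :
    ∃ χ : M →* Circle, (∀ x ∈ N, χ x = 1) ∧ χ m ≠ 1 := by
  have h0 : (QuotientGroup.mk' N m) ≠ 1 := by
    rw [QuotientGroup.mk'_apply, Ne, QuotientGroup.eq_one_iff]
    exact hm
  obtain ⟨χ, hχ⟩ := exists_char h0
  refine ⟨χ.comp (QuotientGroup.mk' N), fun x hx => ?_, hχ⟩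
  rw [MonoidHom.comp_apply, QuotientGroup.mk'_apply, (QuotientGroup.eq_one_iff x).2 hx, map_one]

/-- an element of infinite order is seen by a real character -/
theorem exists_real {m : M} (hm : ¬ IsOfFinOrder m) :
    ∃ φ : Additive M →+ ℝ, φ (Additive.ofMul m) = 1 := by
  have hinj : Function.Injective (zmultiplesHom (Additive M) (Additive.ofMul m)) := by
    rw [injective_iff_map_eq_zero]
    intro n hn
    rw [zmultiplesHom_apply] at hn
    by_contra hne
    apply hm
    rw [isOfFinOrder_iff_zpow_eq_one]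
    exact ⟨n, hne, hn⟩
  obtain ⟨φ, hφ⟩ := (Module.Baer.of_divisible ℝ).extension_property_addMonoidHom
    (zmultiplesHom (Additive M) (Additive.ofMul m)) hinj (Int.castAddHom ℝ)
  refine ⟨φ, ?_⟩
  have := DFunLike.congr_fun hφ 1
  simpa using this

/-- the one parameter group of circle valued characters of a real character -/
noncomputable def ray (φ : Additive M →+ ℝ) (θ : ℝ) : M →* Circle where
  toFun x := Circle.exp (θ * φ (Additive.ofMul x))
  map_one' := by rw [ofMul_one, map_zero, mul_zero, Circle.exp_zero]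
  map_mul' x y := by rw [ofMul_mul, map_add, mul_add, Circle.exp_add]

theorem ray_apply (φ : Additive M →+ ℝ) (θ : ℝ) (x : M) :
    ray φ θ x = Circle.exp (θ * φ (Additive.ofMul x)) := rfl

end Vale.Agent.P184.H553
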